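import Mathlib
import Vale.Agent.Lib.P162.Main3

namespace Vale.Agent.Results.P162.A_ThorpWindow

open Vale.Agent.Lib.P162

/-- Thorp shuffle of `n = 2 ^ d = 2 * 2 ^ (d - 1)` cards, `d ≥ 2`; `D(t)` is the total variation
distance between the law after `t` shuffles and the uniform law.
(i) For every `t ≤ 2d - 2`: `D(t) ≥ 1 - 2 / sqrt n` and `D(t) ≥ 1/3`;
(ii) for every `t ≤ 2d - 1`: `D(t) ≥ 1/18`;
(iii) `D(t) ≤ 1/4` implies `t ≥ 2d - 1`;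
(iv) `D(t) < 1/18` implies `t ≥ 2d`. -/
theorem result (d : ℕ) (hd : 2 ≤ d) :
    (∀ t : ℕ, t ≤ 2 * d - 2 →
      1 - 2 / Real.sqrt ((2:ℝ) ^ d)
          ≤ tvDist (convPow (thorpLaw (2 ^ (d - 1))) t)
              (unifLaw (Equiv.Perm (Fin (2 * 2 ^ (d - 1)))))
      ∧ 1 / 3 ≤ tvDist (convPow (thorpLaw (2 ^ (d - 1))) t)
              (unifLaw (Equiv.Perm (Fin (2 * 2 ^ (d - 1))))))
    ∧ (∀ t : ℕ, t ≤ 2 * d - 1 →
      1 / 18 ≤ tvDist (convPow (thorpLaw (2 ^ (d - 1))) t)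
              (unifLaw (Equiv.Perm (Fin (2 * 2 ^ (d - 1))))))
    ∧ (∀ t : ℕ, tvDist (convPow (thorpLaw (2 ^ (d - 1))) t)
            (unifLaw (Equiv.Perm (Fin (2 * 2 ^ (d - 1))))) ≤ 1 / 4 → 2 * d - 1 ≤ t)
    ∧ (∀ t : ℕ, tvDist (convPow (thorpLaw (2 ^ (d - 1))) t)
            (unifLaw (Equiv.Perm (Fin (2 * 2 ^ (d - 1))))) < 1 / 18 → 2 * d ≤ t) :=
  thorp_window d hd

end Vale.Agent.Results.P162.A_ThorpWindow
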