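import Mathlib
import Vale.Agent.Lib.P162.Main

namespace Vale.Agent.Results.P162.ThorpLowerBound

open Vale.Agent.Lib.P162

/-- Thorp shuffle of `n = 2 ^ d = 2 * 2 ^ (d - 1)` cards, `d ≥ 2`.
(i) For every `t ≤ 2d - 2` the total variation distance between the law after `t` shuffles and
the uniform law is at least `1 - C(n/2, n/4)^2 / C(n, n/2)`;
(ii) that bound is at least `1/3`;
(iii) consequently every `t` at which the distance is at most `1/4` satisfies `t ≥ 2d - 1`,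
i.e. the mixing time of the Thorp shuffle of `2 ^ d` cards is at least `2d - 1`. -/
theorem result (d : ℕ) (hd : 2 ≤ d) :
    (∀ t : ℕ, t ≤ 2 * d - 2 →
      1 - ((Nat.choose (2 ^ (d - 1)) (2 ^ (d - 2)) : ℝ)) ^ 2
            / (Nat.choose (2 * 2 ^ (d - 1)) (2 ^ (d - 1)) : ℝ)
        ≤ tvDist (convPow (thorpLaw (2 ^ (d - 1))) t)
            (unifLaw (Equiv.Perm (Fin (2 * 2 ^ (d - 1))))))
    ∧ (1 / 3 : ℝ) ≤ 1 - ((Nat.choose (2 ^ (d - 1)) (2 ^ (d - 2)) : ℝ)) ^ 2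
            / (Nat.choose (2 * 2 ^ (d - 1)) (2 ^ (d - 1)) : ℝ)
    ∧ (∀ t : ℕ, tvDist (convPow (thorpLaw (2 ^ (d - 1))) t)
            (unifLaw (Equiv.Perm (Fin (2 * 2 ^ (d - 1))))) ≤ 1 / 4 → 2 * d - 1 ≤ t) :=
  thorp_main d hd

end Vale.Agent.Results.P162.ThorpLowerBound
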